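import Mathlib
import Vale.Agent.Lib.P126.UWrap

open scoped Pointwise

namespace Vale.Agent.Results.P126.A0_uncond

open Vale.Agent.Lib.P126

/-- The duality of metric entropy, with the absolute constants `a = 512` and `b = 10000`, holds
for all pairs of origin-symmetric convex bodies in `ℝⁿ` that are both `1`-unconditional with
respect to the standard basis: all covering numbers are at least one (so the infima are attained)
and `(1/b) log N(L°, a K°) ≤ log N(K, L) ≤ b log N(L°, a⁻¹ K°)`. -/
theorem result (n : ℕ) (K L : Set (EuclideanSpace ℝ (Fin n))) (hK : IsSymBody K) (hL : IsSymBody L)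
    (huK : IsUnconditional K) (huL : IsUnconditional L) :
    1 ≤ covNum K L ∧
    1 ≤ covNum (polarBody L) ((512 : ℝ) • polarBody K) ∧
    1 ≤ covNum (polarBody L) ((512 : ℝ)⁻¹ • polarBody K) ∧
    (1 / 10000 : ℝ) * Real.log (covNum (polarBody L) ((512 : ℝ) • polarBody K)) ≤
      Real.log (covNum K L) ∧
    Real.log (covNum K L) ≤
      10000 * Real.log (covNum (polarBody L) ((512 : ℝ)⁻¹ • polarBody K)) := by
  have hP : IsSymBody (polarBody L) := isSymBody_polar hL
  have hPK : IsSymBody (polarBody K) := isSymBody_polar hK
  obtain ⟨h1, h2⟩ := uncond_two_sided hK hL huK huL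
  exact ⟨one_le_covNum hK hL,
    one_le_covNum hP (isSymBody_smul hPK (by norm_num)),
    one_le_covNum hP (isSymBody_smul hPK (by norm_num)), h1, h2⟩

end Vale.Agent.Results.P126.A0_uncond
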