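import Mathlib
import Vale.Agent.Lib.P126.Dual

open scoped Pointwise

namespace Vale.Agent.Results.P126.A_main

open Vale.Agent.Lib.P126

/-- Dimension-free polynomial duality of metric entropy with absolute scale:
for all origin-symmetric convex bodies `K, L` in `ℝⁿ` and every integer `Q ≥ 1`, with `a = 16 Q + 12`,
the covering numbers involved are at least one (so the infima are attained) and
`log N(L°, a K°) ≤ 12 (log N(K, L))^(2 + 1/Q)`, `log N(K, L) ≤ 12 (log N(L°, a⁻¹ K°))^(2 + 1/Q)`. -/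
theorem result (n : ℕ) (K L : Set (EuclideanSpace ℝ (Fin n))) (hK : IsSymBody K) (hL : IsSymBody L)
    (Q : ℕ) (hQ : 1 ≤ Q) :
    1 ≤ covNum K L ∧
    1 ≤ covNum (polarBody L) ((16 * (Q : ℝ) + 12) • polarBody K) ∧
    1 ≤ covNum (polarBody L) ((16 * (Q : ℝ) + 12)⁻¹ • polarBody K) ∧
    Real.log (covNum (polarBody L) ((16 * (Q : ℝ) + 12) • polarBody K)) ≤
      12 * (Real.log (covNum K L)) ^ (2 + 1 / (Q : ℝ)) ∧
    Real.log (covNum K L) ≤
      12 * (Real.log (covNum (polarBody L) ((16 * (Q : ℝ) + 12)⁻¹ • polarBody K))) ^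
        (2 + 1 / (Q : ℝ)) := by
  have hapos : 0 < 16 * (Q : ℝ) + 12 := by positivity
  have hP : IsSymBody (polarBody L) := isSymBody_polar hL
  have hPK : IsSymBody (polarBody K) := isSymBody_polar hK
  obtain ⟨h1, h2⟩ := main_two_sided hK hL hQ
  exact ⟨one_le_covNum hK hL, one_le_covNum hP (isSymBody_smul hPK hapos),
    one_le_covNum hP (isSymBody_smul hPK (inv_pos.mpr hapos)), h1, h2⟩

end Vale.Agent.Results.P126.A_main
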