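import Mathlib
import Vale.Agent.Lib.P126.Polylog

open scoped Pointwise

namespace Vale.Agent.Results.P126.B_polytopes

open Vale.Agent.Lib.P126

/-- The two inequalities of the duality conjecture for symmetric polytopes, with absolute scale
`a = 16 Q + 12` and a factor polylogarithmic in the number of vertices of `K`, facets of `L`. -/
theorem result (n : ℕ) (K L : Set (EuclideanSpace ℝ (Fin n))) (hK : IsSymBody K) (hL : IsSymBody L)
    (Q : ℕ) (hQ : 1 ≤ Q) (D F : Finset (EuclideanSpace ℝ (Fin n))) (hF : F.Nonempty)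
    (hDK : K = convexHull ℝ ((D : Set (EuclideanSpace ℝ (Fin n))) ∪ -(D : Set (EuclideanSpace ℝ (Fin n)))))
    (hFL : L = polarBody ((F : Set (EuclideanSpace ℝ (Fin n))) ∪ -(F : Set (EuclideanSpace ℝ (Fin n))))) :
    Real.log (covNum (polarBody L) ((16 * (Q : ℝ) + 12) • polarBody K)) ≤
      5 * (Real.logb 2 (8 * (D.card : ℝ))) ^ (1 / (Q : ℝ)) *
        Real.logb 2 (8 * ((Q : ℝ) + 1) * (D.card : ℝ)) * Real.log (covNum K L) ∧
    Real.log (covNum K L) ≤
      5 * (Real.logb 2 (8 * (F.card : ℝ))) ^ (1 / (Q : ℝ)) *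
        Real.logb 2 (8 * ((Q : ℝ) + 1) * (F.card : ℝ)) *
        Real.log (covNum (polarBody L) ((16 * (Q : ℝ) + 12)⁻¹ • polarBody K)) :=
  main_polytopes hK hL hQ D F hF hDK hFL

end Vale.Agent.Results.P126.B_polytopes
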