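import Mathlib
import Vale.Agent.Lib.P126.Polylog

open scoped Pointwise

namespace Vale.Agent.Results.P126.C_general

open Vale.Agent.Lib.P126

/-- Duality of metric entropy with absolute scale `a = 16 Q + 12` and a factor polylogarithmic in the
size of a finite set `D ⊆ K` with `K ⊆ conv(D ∪ -D) + 2 L` (and symmetrically for the dual pair). -/
theorem result (n : ℕ) (K L : Set (EuclideanSpace ℝ (Fin n))) (hK : IsSymBody K) (hL : IsSymBody L)
    (Q : ℕ) (hQ : 1 ≤ Q) :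
    (∀ D : Finset (EuclideanSpace ℝ (Fin n)), (∀ p ∈ D, p ∈ K) →
      K ⊆ convexHull ℝ ((D : Set (EuclideanSpace ℝ (Fin n))) ∪ -(D : Set (EuclideanSpace ℝ (Fin n))))
        + (2 : ℝ) • L →
      Real.log (covNum (polarBody L) ((16 * (Q : ℝ) + 12) • polarBody K)) ≤
        5 * (Real.logb 2 (8 * (D.card : ℝ))) ^ (1 / (Q : ℝ)) *
          Real.logb 2 (8 * ((Q : ℝ) + 1) * (D.card : ℝ)) * Real.log (covNum K L)) ∧
    (∀ D : Finset (EuclideanSpace ℝ (Fin n)), (∀ p ∈ D, p ∈ polarBody L) →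
      polarBody L ⊆ convexHull ℝ ((D : Set (EuclideanSpace ℝ (Fin n))) ∪ -(D : Set (EuclideanSpace ℝ (Fin n))))
        + (2 : ℝ) • ((16 * (Q : ℝ) + 12)⁻¹ • polarBody K) →
      Real.log (covNum K L) ≤
        5 * (Real.logb 2 (8 * (D.card : ℝ))) ^ (1 / (Q : ℝ)) *
          Real.logb 2 (8 * ((Q : ℝ) + 1) * (D.card : ℝ)) *
          Real.log (covNum (polarBody L) ((16 * (Q : ℝ) + 12)⁻¹ • polarBody K))) :=
  ⟨fun D h1 h2 => main_polylog hK hL hQ D h1 h2, fun D h1 h2 => main_polylog_dual hK hL hQ D h1 h2⟩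

end Vale.Agent.Results.P126.C_general
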