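import Mathlib
import Vale.Agent.Results.P126.A0_uncond
import Vale.Agent.Results.P126.A_main
import Vale.Agent.Results.P126.B_polytopes
import Vale.Agent.Results.P126.C_general

open scoped Pointwise

namespace Vale.Agent.Results.P126.A00_master

open Vale.Agent.Lib.P126

variable {n : ℕ}

/-- The factor `b(m) = 5 (log₂ 8m)^(1/Q) log₂ (8 (Q+1) m)`. -/
noncomputable def bFactor (Q m : ℕ) : ℝ :=
  5 * (Real.logb 2 (8 * (m : ℝ))) ^ (1 / (Q : ℝ)) * Real.logb 2 (8 * ((Q : ℝ) + 1) * (m : ℝ))

/-- The scale `a = 16 Q + 12`. -/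
noncomputable def aScale (Q : ℕ) : ℝ := 16 * (Q : ℝ) + 12

/-- `conv (D ∪ -D)`. -/
def symHull (D : Finset (EuclideanSpace ℝ (Fin n))) : Set (EuclideanSpace ℝ (Fin n)) :=
  convexHull ℝ ((D : Set (EuclideanSpace ℝ (Fin n))) ∪ -(D : Set (EuclideanSpace ℝ (Fin n))))

/-- Duality with absolute constants `a = 512`, `b = 10000`; all covering numbers are at least one. -/
def AbsoluteForm (K L : Set (EuclideanSpace ℝ (Fin n))) : Prop :=
  1 ≤ covNum K L ∧
  1 ≤ covNum (polarBody L) ((512 : ℝ) • polarBody K) ∧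
  1 ≤ covNum (polarBody L) ((512 : ℝ)⁻¹ • polarBody K) ∧
  (1 / 10000 : ℝ) * Real.log (covNum (polarBody L) ((512 : ℝ) • polarBody K)) ≤
    Real.log (covNum K L) ∧
  Real.log (covNum K L) ≤
    10000 * Real.log (covNum (polarBody L) ((512 : ℝ)⁻¹ • polarBody K))

/-- Polynomial duality at scale `a = 16 Q + 12`, exponent `2 + 1/Q`; all covering numbers are at least one. -/
def PowerForm (Q : ℕ) (K L : Set (EuclideanSpace ℝ (Fin n))) : Prop :=
  1 ≤ covNum K L ∧
  1 ≤ covNum (polarBody L) (aScale Q • polarBody K) ∧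
  1 ≤ covNum (polarBody L) ((aScale Q)⁻¹ • polarBody K) ∧
  Real.log (covNum (polarBody L) (aScale Q • polarBody K)) ≤
    12 * (Real.log (covNum K L)) ^ (2 + 1 / (Q : ℝ)) ∧
  Real.log (covNum K L) ≤
    12 * (Real.log (covNum (polarBody L) ((aScale Q)⁻¹ • polarBody K))) ^ (2 + 1 / (Q : ℝ))

/-- Duality at scale `a = 16 Q + 12`, factor `b(|D|)` for finite `D` approximating `K` or `L°`. -/
def ApproxForm (Q : ℕ) (K L : Set (EuclideanSpace ℝ (Fin n))) : Prop :=
  (∀ D : Finset (EuclideanSpace ℝ (Fin n)), (∀ p ∈ D, p ∈ K) → K ⊆ symHull D + (2 : ℝ) • L →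
    Real.log (covNum (polarBody L) (aScale Q • polarBody K)) ≤
      bFactor Q D.card * Real.log (covNum K L)) ∧
  (∀ D : Finset (EuclideanSpace ℝ (Fin n)), (∀ p ∈ D, p ∈ polarBody L) →
    polarBody L ⊆ symHull D + (2 : ℝ) • ((aScale Q)⁻¹ • polarBody K) →
    Real.log (covNum K L) ≤
      bFactor Q D.card * Real.log (covNum (polarBody L) ((aScale Q)⁻¹ • polarBody K)))

/-- Duality at scale `a = 16 Q + 12` for polytopes `K = conv (D ∪ -D)`, `L = (F ∪ -F)°`. -/
def PolytopeForm (Q : ℕ) (K L : Set (EuclideanSpace ℝ (Fin n))) : Prop :=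
  ∀ D F : Finset (EuclideanSpace ℝ (Fin n)), F.Nonempty → K = symHull D →
    L = polarBody ((F : Set (EuclideanSpace ℝ (Fin n))) ∪ -(F : Set (EuclideanSpace ℝ (Fin n)))) →
    Real.log (covNum (polarBody L) (aScale Q • polarBody K)) ≤
      bFactor Q D.card * Real.log (covNum K L) ∧
    Real.log (covNum K L) ≤
      bFactor Q F.card * Real.log (covNum (polarBody L) ((aScale Q)⁻¹ • polarBody K))

/-- The duality of metric entropy for origin-symmetric convex bodies `K, L` in `ℝⁿ`:
the exact form with absolute constants for pairs unconditional in the standard basis, and, for every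
integer `Q ≥ 1`, at absolute scale `a = 16 Q + 12`, the dimension-free polynomial form with exponent
`2 + 1/Q`, the form with factor polylogarithmic in the size of a finite approximating set,
and the same for symmetric polytopes in terms of vertices and facets. -/
theorem result (n : ℕ) (K L : Set (EuclideanSpace ℝ (Fin n))) (hK : IsSymBody K) (hL : IsSymBody L) :
    (IsUnconditional K → IsUnconditional L → AbsoluteForm K L) ∧
    ∀ Q : ℕ, 1 ≤ Q → PowerForm Q K L ∧ ApproxForm Q K L ∧ PolytopeForm Q K L :=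
  ⟨fun hu hv => Vale.Agent.Results.P126.A0_uncond.result n K L hK hL hu hv,
    fun Q hQ => ⟨Vale.Agent.Results.P126.A_main.result n K L hK hL Q hQ,
      Vale.Agent.Results.P126.C_general.result n K L hK hL Q hQ,
      fun D F hF hDK hFL => Vale.Agent.Results.P126.B_polytopes.result n K L hK hL Q hQ D F hF hDK hFL⟩⟩

end Vale.Agent.Results.P126.A00_master
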